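import Mathlib

/-! One pass: the mean of the positive part of a sum of independent uniform jitters, and the value
part of the accounting with a static cut. -/

set_option autoImplicit false

open Finset

namespace Vale.Agent.P315.H858

/-- Second moment of a sum of terms that are odd under pairwise commuting reflections. -/
theorem second_moment {Ω ι : Type*} [Fintype Ω] [DecidableEq ι] (s : Finset ι) (Y : ι → Ω → ℝ)
    (τ : ι → Ω ≃ Ω) (h1 : ∀ i ∈ s, ∀ ω, Y i (τ i ω) = -Y i ω)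
    (h2 : ∀ i ∈ s, ∀ j ∈ s, j ≠ i → ∀ ω, Y j (τ i ω) = Y j ω) :
    ∑ ω, (∑ i ∈ s, Y i ω) ^ 2 = ∑ i ∈ s, ∑ ω, Y i ω ^ 2 := by
  have hz : ∀ i ∈ s, ∀ j ∈ s, j ≠ i → ∑ ω, Y i ω * Y j ω = 0 := by
    intro i hi j hj hij
    have h3 : ∑ ω, Y i ω * Y j ω = ∑ ω, Y i (τ i ω) * Y j (τ i ω) :=
      (Equiv.sum_comp (τ i) (fun ω => Y i ω * Y j ω)).symm
    have h4 : ∑ ω, Y i (τ i ω) * Y j (τ i ω) = -∑ ω, Y i ω * Y j ω := by
      rw [← sum_neg_distrib]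
      refine sum_congr rfl fun ω _ => ?_
      rw [h1 i hi, h2 i hi j hj hij]; ring
    linarith
  have h5 : ∀ ω, (∑ i ∈ s, Y i ω) ^ 2 = ∑ i ∈ s, ∑ j ∈ s, Y i ω * Y j ω := by
    intro ω
    rw [pow_two, sum_mul_sum]
  simp only [h5]
  rw [sum_comm]
  refine sum_congr rfl fun i hi => ?_
  rw [sum_comm]
  rw [sum_eq_single_of_mem i hi (fun j hj hij => hz i hi j hj hij)]
  exact sum_congr rfl fun ω _ => (pow_two _).symm

/-- Mean of the absolute value from the second moment. -/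
theorem sum_abs_le {Ω : Type*} [Fintype Ω] (f : Ω → ℝ) (V : ℝ) (hV : 0 ≤ V)
    (h : ∑ ω, f ω ^ 2 ≤ (Fintype.card Ω : ℝ) * V ^ 2) :
    ∑ ω, |f ω| ≤ (Fintype.card Ω : ℝ) * V := by
  have h1 : (∑ ω, |f ω|) ^ 2 ≤ (Fintype.card Ω : ℝ) * ∑ ω, |f ω| ^ 2 := by
    have := sq_sum_le_card_mul_sum_sq (s := (univ : Finset Ω)) (f := fun ω => |f ω|)
    simpa using this
  have h2 : ∑ ω, |f ω| ^ 2 = ∑ ω, f ω ^ 2 := sum_congr rfl fun ω _ => sq_abs _
  rw [h2] at h1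
  have h3 : (0 : ℝ) ≤ (Fintype.card Ω : ℝ) := Nat.cast_nonneg _
  have h4 : (∑ ω, |f ω|) ^ 2 ≤ ((Fintype.card Ω : ℝ) * V) ^ 2 := by
    calc (∑ ω, |f ω|) ^ 2 ≤ (Fintype.card Ω : ℝ) * ∑ ω, f ω ^ 2 := h1
      _ ≤ (Fintype.card Ω : ℝ) * ((Fintype.card Ω : ℝ) * V ^ 2) :=
        mul_le_mul_of_nonneg_left h h3
      _ = _ := by ring
  exact (abs_le_of_sq_le_sq' h4 (mul_nonneg h3 hV)).2

/-- Reflection of one coordinate. -/
def refl {ι : Type*} [DecidableEq ι] (J : ℕ) (i : ι) : (ι → Fin (J + 1)) ≃ (ι → Fin (J + 1)) where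
  toFun ξ := Function.update ξ i (Fin.rev (ξ i))
  invFun ξ := Function.update ξ i (Fin.rev (ξ i))
  left_inv ξ := by
    funext k
    by_cases hk : k = i
    · subst hk; simp
    · simp [hk]
  right_inv ξ := by
    funext k
    by_cases hk : k = i
    · subst hk; simp
    · simp [hk]

/-- The mean of the part of the sum of `|s|` independent uniform jitters in `{0, …, J}` above
`|s| J / 2 - c` is at most `c + J √|s| / 2`. -/
theorem jitter_pos_part {ι : Type*} [Fintype ι] [DecidableEq ι] (J : ℕ) (s : Finset ι) (c : ℝ)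
    (hc : 0 ≤ c) :
    ∑ ξ : ι → Fin (J + 1), max 0 (∑ i ∈ s, ((ξ i : ℕ) : ℝ) - ((s.card : ℝ) * J / 2 - c)) ≤
      (Fintype.card (ι → Fin (J + 1)) : ℝ) * (c + J * Real.sqrt s.card / 2) := by
  set Y : ι → (ι → Fin (J + 1)) → ℝ := fun i ξ => ((ξ i : ℕ) : ℝ) - (J : ℝ) / 2 with hY
  have hrev : ∀ a : Fin (J + 1), ((Fin.rev a : ℕ) : ℝ) = (J : ℝ) - ((a : ℕ) : ℝ) := by
    intro a
    rw [Fin.val_rev]
    have : (a : ℕ) ≤ J := by omega
    rw [show J + 1 - ((a : ℕ) + 1) = J - a by omega, Nat.cast_sub this]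
  have h1 : ∀ i ∈ s, ∀ ξ, Y i (refl J i ξ) = -Y i ξ := by
    intro i _ ξ
    simp only [hY, refl, Equiv.coe_fn_mk, Function.update_self]
    rw [hrev]; ring
  have h2 : ∀ i ∈ s, ∀ j ∈ s, j ≠ i → ∀ ξ, Y j (refl J i ξ) = Y j ξ := by
    intro i _ j _ hij ξ
    simp [hY, refl, Function.update_of_ne hij]
  have h3 := second_moment s Y (refl J) h1 h2
  have h4 : ∀ i ξ, Y i ξ ^ 2 ≤ ((J : ℝ) / 2) ^ 2 := by
    intro i ξ
    have : ((ξ i : ℕ) : ℝ) ≤ J := by exact_mod_cast (show (ξ i : ℕ) ≤ J by omega)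
    have h0 : (0 : ℝ) ≤ ((ξ i : ℕ) : ℝ) := Nat.cast_nonneg _
    simp only [hY]
    nlinarith
  have hs : Real.sqrt s.card ^ 2 = (s.card : ℝ) := Real.sq_sqrt (Nat.cast_nonneg _)
  have h5 : ∑ ξ, (∑ i ∈ s, Y i ξ) ^ 2 ≤
      (Fintype.card (ι → Fin (J + 1)) : ℝ) * (J * Real.sqrt s.card / 2) ^ 2 := by
    rw [h3]
    calc ∑ i ∈ s, ∑ ξ, Y i ξ ^ 2 ≤ ∑ i ∈ s, ∑ ξ : ι → Fin (J + 1), ((J : ℝ) / 2) ^ 2 :=
          sum_le_sum fun i _ => sum_le_sum fun ξ _ => h4 i ξ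
      _ = (Fintype.card (ι → Fin (J + 1)) : ℝ) * (J * Real.sqrt s.card / 2) ^ 2 := by
          rw [sum_const, sum_const, card_univ, nsmul_eq_mul, nsmul_eq_mul,
            show (J * Real.sqrt s.card / 2) ^ 2 = (J / 2) ^ 2 * Real.sqrt s.card ^ 2 by ring, hs]
          ring
  have h6 := sum_abs_le (fun ξ => ∑ i ∈ s, Y i ξ) (J * Real.sqrt s.card / 2) (by positivity) h5
  have h7 : ∀ ξ : ι → Fin (J + 1),
      max 0 (∑ i ∈ s, ((ξ i : ℕ) : ℝ) - ((s.card : ℝ) * J / 2 - c)) ≤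
        c + |∑ i ∈ s, Y i ξ| := by
    intro ξ
    have h8 : ∑ i ∈ s, Y i ξ = ∑ i ∈ s, ((ξ i : ℕ) : ℝ) - (s.card : ℝ) * J / 2 := by
      simp only [hY]
      rw [sum_sub_distrib, sum_const, nsmul_eq_mul]; ring
    have h9 := le_abs_self (∑ i ∈ s, Y i ξ)
    have h10 := abs_nonneg (∑ i ∈ s, Y i ξ)
    refine max_le (by linarith) (by linarith)
  calc ∑ ξ : ι → Fin (J + 1), max 0 (∑ i ∈ s, ((ξ i : ℕ) : ℝ) - ((s.card : ℝ) * J / 2 - c))
      ≤ ∑ ξ : ι → Fin (J + 1), (c + |∑ i ∈ s, Y i ξ|) := sum_le_sum fun ξ _ => h7 ξ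
    _ = (Fintype.card (ι → Fin (J + 1)) : ℝ) * c + ∑ ξ, |∑ i ∈ s, Y i ξ| := by
        rw [sum_add_distrib, sum_const, card_univ, nsmul_eq_mul]
    _ ≤ _ := by
        have : (Fintype.card (ι → Fin (J + 1)) : ℝ) * (c + J * Real.sqrt s.card / 2) =
          (Fintype.card (ι → Fin (J + 1)) : ℝ) * c +
          (Fintype.card (ι → Fin (J + 1)) : ℝ) * (J * Real.sqrt s.card / 2) := by ring
        rw [this]
        linarith

end Vale.Agent.P315.H858
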